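import Crest.Agent.H2.Snaky.Core

set_option autoImplicit false

namespace Crest.Agent.H2.Snaky

open Crest.CombinatoricsR.PolyominoGame

/-- cell with index `k` -/
def cellOf (k : ℕ) : Cell := (((k % 16 : ℕ) : ℤ), ((k / 16 : ℕ) : ℤ))

theorem cellOf_inj {a b : ℕ} (h : cellOf a = cellOf b) : a = b := by
  simp only [cellOf, Prod.mk.injEq, Nat.cast_inj] at h
  omega

/-- decoding of bit masks -/
def dec (x : ℕ) : Set Cell := {c | ∃ k, x.testBit k = true ∧ c = cellOf k}

theorem cellOf_mem_dec {k x : ℕ} : cellOf k ∈ dec x ↔ x.testBit k = true := by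
  constructor
  · rintro ⟨j, h1, h2⟩
    rw [cellOf_inj h2]; exact h1
  · intro h; exact ⟨k, h, rfl⟩

/-- pattern data: number of moves, needed cells, zone -/
structure Tp where
  n : ℕ
  U : ℕ
  Z : ℕ

/-- validity -/
def G (p : Tp) : Prop := Pat p.n (dec p.U) (dec p.Z)

structure Fr where
  n : ℕ
  U : ℕ
  O : ℕ
  A : ℕ

/-- validity of a frame -/
def Q (f : Fr) : Prop := ∀ r : Cell, r ∈ dec f.A ∨
  ∃ U' Z' : Set Cell, Pat f.n U' Z' ∧ r ∉ Z' ∧ (∀ p ∈ U', p ∈ dec f.U) ∧ (∀ p ∈ Z', p ∈ dec f.O)

def nmax (a b : ℕ) : ℕ := bif Nat.ble a b then b else a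

theorem le_nmax_left (a b : ℕ) : a ≤ nmax a b := by
  unfold nmax
  cases h : Nat.ble a b
  · simp
  · simpa using Nat.le_of_ble_eq_true h

theorem le_nmax_right (a b : ℕ) : b ≤ nmax a b := by
  unfold nmax
  cases h : Nat.ble a b
  · simp only [cond_false]
    by_contra hc
    have : Nat.ble a b = true := Nat.ble_eq_true_of_le (by omega)
    rw [h] at this; cases this
  · simp

theorem dec_or {x y : ℕ} {c : Cell} : c ∈ dec (Nat.lor x y) ↔ c ∈ dec x ∨ c ∈ dec y := by
  have hh : Nat.lor x y = x ||| y := rfl
  constructor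
  · rintro ⟨k, h, rfl⟩
    rw [hh, Nat.testBit_or, Bool.or_eq_true] at h
    rcases h with h | h
    · exact Or.inl ⟨k, h, rfl⟩
    · exact Or.inr ⟨k, h, rfl⟩
  · rintro (⟨k, h, rfl⟩ | ⟨k, h, rfl⟩)
    · exact ⟨k, by rw [hh, Nat.testBit_or, h, Bool.true_or], rfl⟩
    · exact ⟨k, by rw [hh, Nat.testBit_or, h, Bool.or_true], rfl⟩

theorem dec_and {x y : ℕ} {c : Cell} : c ∈ dec (Nat.land x y) ↔ c ∈ dec x ∧ c ∈ dec y := by
  have hh : Nat.land x y = x &&& y := rfl
  constructor
  · rintro ⟨k, h, rfl⟩
    rw [hh, Nat.testBit_and, Bool.and_eq_true] at h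
    exact ⟨⟨k, h.1, rfl⟩, ⟨k, h.2, rfl⟩⟩
  · rintro ⟨⟨k, h, rfl⟩, h2⟩
    rw [cellOf_mem_dec] at h2
    exact ⟨k, by rw [hh, Nat.testBit_and, h, h2]; rfl, rfl⟩

theorem Q_first {p : Tp} (hp : G p) : Q ⟨p.n, p.U, p.Z, p.Z⟩ := by
  intro r
  by_cases h : r ∈ dec p.Z
  · exact Or.inl h
  · exact Or.inr ⟨dec p.U, dec p.Z, hp, h, fun _ h => h, fun _ h => h⟩

theorem Q_merge {f : Fr} {p : Tp} (hf : Q f) (hp : G p) :
    Q ⟨nmax f.n p.n, Nat.lor f.U p.U, Nat.lor f.O p.Z, Nat.land f.A p.Z⟩ := by
  intro r
  rcases hf r with h | ⟨U', Z', h1, h2, h3, h4⟩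
  · by_cases h' : r ∈ dec p.Z
    · exact Or.inl (dec_and.2 ⟨h, h'⟩)
    · exact Or.inr ⟨dec p.U, dec p.Z, Pat.mono (le_nmax_right _ _) (subset_refl _) (subset_refl _) hp,
        h', fun _ h => dec_or.2 (Or.inr h), fun _ h => dec_or.2 (Or.inr h)⟩
  · exact Or.inr ⟨U', Z', Pat.mono (le_nmax_left _ _) (subset_refl _) (subset_refl _) h1, h2,
      fun c hc => dec_or.2 (Or.inl (h3 c hc)), fun c hc => dec_or.2 (Or.inl (h4 c hc))⟩

theorem G_close {f : Fr} (m : ℕ) (hf : Q f) (hA : f.A = 0)
    (hm : Nat.land f.O (Nat.shiftLeft 1 m) = 0) :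
    G ⟨f.n + 1, Nat.xor f.U (Nat.land f.U (Nat.shiftLeft 1 m)), Nat.lor f.O (Nat.shiftLeft 1 m)⟩ := by
  have hb : ∀ k, (Nat.shiftLeft 1 m).testBit k = decide (k = m) := by
    intro k
    have : Nat.shiftLeft 1 m = 2 ^ m := by
      show 1 <<< m = 2 ^ m
      rw [Nat.shiftLeft_eq, one_mul]
    rw [this, Nat.testBit_two_pow]
    simp [eq_comm]
  refine Pat.node (cellOf m) (dec_or.2 (Or.inr ?_)) ?_
  · rw [cellOf_mem_dec, hb]; simp
  intro r
  rcases hf r with h | ⟨U', Z', h1, h2, h3, h4⟩
  · obtain ⟨k, hk, _⟩ := h
    rw [hA, Nat.zero_testBit] at hk; cases hk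
  · refine ⟨U', Z', h1, h2, ?_, ?_, fun c hc => dec_or.2 (Or.inl (h4 c hc))⟩
    · intro hmem
      have := h4 _ hmem
      rw [cellOf_mem_dec] at this
      have h5 : (Nat.land f.O (Nat.shiftLeft 1 m)).testBit m = true := by
        show (f.O &&& Nat.shiftLeft 1 m).testBit m = true
        rw [Nat.testBit_and, this, hb]; simp
      rw [hm, Nat.zero_testBit] at h5; cases h5
    · intro c hc
      obtain ⟨k, hk, rfl⟩ := h3 c hc
      by_cases hkm : k = m
      · left; rw [hkm]
      · right
        refine ⟨k, ?_, rfl⟩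
        show (f.U ^^^ (f.U &&& Nat.shiftLeft 1 m)).testBit k = true
        rw [Nat.testBit_xor, Nat.testBit_and, hb, hk]
        simp [hkm]

/-- finish a node: `k` more children, then close with move `m` -/
def node (m : ℕ) : ℕ → Fr → List Tp → List Tp
  | 0, f, st =>
    bif Nat.beq f.A 0 && Nat.beq (Nat.land f.O (Nat.shiftLeft 1 m)) 0 then
      ⟨f.n + 1, Nat.xor f.U (Nat.land f.U (Nat.shiftLeft 1 m)), Nat.lor f.O (Nat.shiftLeft 1 m)⟩ :: st
    else []
  | k + 1, f, p :: st => node m k ⟨nmax f.n p.n, Nat.lor f.U p.U, Nat.lor f.O p.Z, Nat.land f.A p.Z⟩ st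
  | _ + 1, _, [] => []

theorem node_sound (m : ℕ) (k : ℕ) : ∀ (f : Fr) (st : List Tp), Q f → (∀ p ∈ st, G p) →
    ∀ p ∈ node m k f st, G p := by
  induction k with
  | zero =>
    intro f st hf hst p hp
    unfold node at hp
    cases h : (Nat.beq f.A 0 && Nat.beq (Nat.land f.O (Nat.shiftLeft 1 m)) 0)
    · rw [h] at hp; simp at hp
    · rw [h] at hp
      rw [Bool.and_eq_true] at h
      simp only [cond_true, List.mem_cons] at hp
      rcases hp with hp | hp
      · rw [hp]
        exact G_close m hf (Nat.eq_of_beq_eq_true h.1) (Nat.eq_of_beq_eq_true h.2)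
      · exact hst p hp
  | succ k ih =>
    intro f st hf hst p hp
    cases st with
    | nil => unfold node at hp; simp at hp
    | cons q st =>
      unfold node at hp
      exact ih _ _ (Q_merge hf (hst q (by simp))) (fun p hp => hst p (by simp [hp])) p hp

/-- masks of the eight orientations -/
def baseMask : ℕ → ℕ
  | 0 => 1572879
  | 1 => 983064
  | 2 => 196638
  | 3 => 1966083
  | 4 => 36894332576644268033
  | 5 => 18447025552981426178
  | 6 => 18447588507229749250
  | _ => 36894051105962655745

def maxX (o : ℕ) : ℕ := bif Nat.ble 4 o then 1 else 4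

theorem cellOf_add {s d : ℕ} (h : s % 16 + d % 16 ≤ 15) :
    cellOf (s + d) = ((cellOf s).1 + (cellOf d).1, (cellOf s).2 + (cellOf d).2) := by
  have h1 : (s + d) % 16 = s % 16 + d % 16 := by omega
  have h2 : (s + d) / 16 = s / 16 + d / 16 := by omega
  simp only [cellOf, h1, h2]
  push_cast
  rfl

theorem mem_shift {x s k : ℕ} (h : x.testBit k = true) : cellOf (s + k) ∈ dec (Nat.shiftLeft x s) := by
  rw [cellOf_mem_dec]
  show (x <<< s).testBit (s + k) = true
  rw [Nat.testBit_shiftLeft]
  simp [h]

theorem copy_base (o s : ℕ) (h : Nat.ble (s % 16 + maxX o) 15 = true) :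
    ContainsCopy (dec (Nat.shiftLeft (baseMask o) s)) := by
  have h' := Nat.le_of_ble_eq_true h
  have key : ∀ (k : ℕ), k % 16 ≤ maxX o → (baseMask o).testBit k = true →
      ((cellOf s).1 + (cellOf k).1, (cellOf s).2 + (cellOf k).2) ∈
        dec (Nat.shiftLeft (baseMask o) s) := by
    intro k hk hb
    rw [← cellOf_add (by omega)]
    exact mem_shift hb
  match o, h, h', key with
  | 0, _, _, key =>
    refine ⟨cellOf s, 1, 1, Or.inl rfl, Or.inl rfl, Or.inl ?_⟩
    intro p hp
    simp only [snaky, Finset.mem_insert, Finset.mem_singleton] at hp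
    rcases hp with rfl | rfl | rfl | rfl | rfl | rfl
    · simpa [cellOf] using key 0 (by decide) (by decide)
    · simpa [cellOf] using key 1 (by decide) (by decide)
    · simpa [cellOf] using key 2 (by decide) (by decide)
    · simpa [cellOf] using key 3 (by decide) (by decide)
    · simpa [cellOf] using key 19 (by decide) (by decide)
    · simpa [cellOf] using key 20 (by decide) (by decide)
  | 1, _, _, key =>
    refine ⟨((cellOf s).1, (cellOf s).2 + 1), 1, -1, Or.inl rfl, Or.inr rfl, Or.inl ?_⟩
    intro p hp
    simp only [snaky, Finset.mem_insert, Finset.mem_singleton] at hp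
    rcases hp with rfl | rfl | rfl | rfl | rfl | rfl
    · simpa [cellOf] using key 16 (by decide) (by decide)
    · simpa [cellOf] using key 17 (by decide) (by decide)
    · simpa [cellOf] using key 18 (by decide) (by decide)
    · simpa [cellOf] using key 19 (by decide) (by decide)
    · simpa [cellOf] using key 3 (by decide) (by decide)
    · simpa [cellOf] using key 4 (by decide) (by decide)
  | 2, _, _, key =>
    refine ⟨((cellOf s).1 + 4, (cellOf s).2), -1, 1, Or.inr rfl, Or.inl rfl, Or.inl ?_⟩
    intro p hp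
    simp only [snaky, Finset.mem_insert, Finset.mem_singleton] at hp
    rcases hp with rfl | rfl | rfl | rfl | rfl | rfl
    · simpa [cellOf] using key 4 (by decide) (by decide)
    · have := key 3 (by decide) (by decide); simp [cellOf] at this ⊢; convert this using 2; omega
    · have := key 2 (by decide) (by decide); simp [cellOf] at this ⊢; convert this using 2; omega
    · have := key 1 (by decide) (by decide); simp [cellOf] at this ⊢; convert this using 2; omega
    · have := key 17 (by decide) (by decide); simp [cellOf] at this ⊢; convert this using 2; omega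
    · have := key 16 (by decide) (by decide); simp [cellOf] at this ⊢; convert this using 2
  | 3, _, _, key =>
    refine ⟨((cellOf s).1 + 4, (cellOf s).2 + 1), -1, -1, Or.inr rfl, Or.inr rfl, Or.inl ?_⟩
    intro p hp
    simp only [snaky, Finset.mem_insert, Finset.mem_singleton] at hp
    rcases hp with rfl | rfl | rfl | rfl | rfl | rfl
    · simpa [cellOf] using key 20 (by decide) (by decide)
    · have := key 19 (by decide) (by decide); simp [cellOf] at this ⊢; convert this using 2; omega
    · have := key 18 (by decide) (by decide); simp [cellOf] at this ⊢; convert this using 2; omega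
    · have := key 17 (by decide) (by decide); simp [cellOf] at this ⊢; convert this using 2; omega
    · have := key 1 (by decide) (by decide); simp [cellOf] at this ⊢; convert this using 2; omega
    · have := key 0 (by decide) (by decide); simp [cellOf] at this ⊢; convert this using 2
  | 4, _, _, key =>
    refine ⟨cellOf s, 1, 1, Or.inl rfl, Or.inl rfl, Or.inr ?_⟩
    intro p hp
    simp only [snaky, Finset.mem_insert, Finset.mem_singleton] at hp
    rcases hp with rfl | rfl | rfl | rfl | rfl | rfl
    · simpa [cellOf] using key 0 (by decide) (by decide)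
    · simpa [cellOf] using key 16 (by decide) (by decide)
    · simpa [cellOf] using key 32 (by decide) (by decide)
    · simpa [cellOf] using key 48 (by decide) (by decide)
    · simpa [cellOf] using key 49 (by decide) (by decide)
    · simpa [cellOf] using key 65 (by decide) (by decide)
  | 5, _, _, key =>
    refine ⟨((cellOf s).1, (cellOf s).2 + 4), 1, -1, Or.inl rfl, Or.inr rfl, Or.inr ?_⟩
    intro p hp
    simp only [snaky, Finset.mem_insert, Finset.mem_singleton] at hp
    rcases hp with rfl | rfl | rfl | rfl | rfl | rfl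
    · simpa [cellOf] using key 64 (by decide) (by decide)
    · have := key 48 (by decide) (by decide); simp [cellOf] at this ⊢; convert this using 2; omega
    · have := key 32 (by decide) (by decide); simp [cellOf] at this ⊢; convert this using 2; omega
    · have := key 16 (by decide) (by decide); simp [cellOf] at this ⊢; convert this using 2; omega
    · have := key 17 (by decide) (by decide); simp [cellOf] at this ⊢; convert this using 2; omega
    · have := key 1 (by decide) (by decide); simp [cellOf] at this ⊢; convert this using 2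
  | 6, _, _, key =>
    refine ⟨((cellOf s).1 + 1, (cellOf s).2), -1, 1, Or.inr rfl, Or.inl rfl, Or.inr ?_⟩
    intro p hp
    simp only [snaky, Finset.mem_insert, Finset.mem_singleton] at hp
    rcases hp with rfl | rfl | rfl | rfl | rfl | rfl
    · simpa [cellOf] using key 1 (by decide) (by decide)
    · simpa [cellOf] using key 17 (by decide) (by decide)
    · simpa [cellOf] using key 33 (by decide) (by decide)
    · simpa [cellOf] using key 49 (by decide) (by decide)
    · simpa [cellOf] using key 48 (by decide) (by decide)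
    · simpa [cellOf] using key 64 (by decide) (by decide)
  | k + 7, _, _, key =>
    refine ⟨((cellOf s).1 + 1, (cellOf s).2 + 4), -1, -1, Or.inr rfl, Or.inr rfl, Or.inr ?_⟩
    have hb : baseMask (k + 7) = 36894051105962655745 := rfl
    have hm : maxX (k + 7) = 1 := by
      unfold maxX
      have : Nat.ble 4 (k + 7) = true := Nat.ble_eq_true_of_le (by omega)
      rw [this]; rfl
    rw [hb, hm] at key
    rw [hb]
    intro p hp
    simp only [snaky, Finset.mem_insert, Finset.mem_singleton] at hp
    rcases hp with rfl | rfl | rfl | rfl | rfl | rfl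
    · simpa [cellOf] using key 65 (by decide) (by decide)
    · have := key 49 (by decide) (by decide); simp [cellOf] at this ⊢; convert this using 2; omega
    · have := key 33 (by decide) (by decide); simp [cellOf] at this ⊢; convert this using 2; omega
    · have := key 17 (by decide) (by decide); simp [cellOf] at this ⊢; convert this using 2; omega
    · have := key 16 (by decide) (by decide); simp [cellOf] at this ⊢; convert this using 2; omega
    · have := key 0 (by decide) (by decide); simp [cellOf] at this ⊢; convert this using 2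

theorem leaf_sound (o s c : ℕ) (h : Nat.ble (s % 16 + maxX o) 15 = true) :
    G ⟨1, Nat.xor (Nat.shiftLeft (baseMask o) s)
        (Nat.land (Nat.shiftLeft (baseMask o) s) (Nat.shiftLeft 1 c)), Nat.shiftLeft 1 c⟩ := by
  have hb : ∀ k, (Nat.shiftLeft 1 c).testBit k = decide (k = c) := by
    intro k
    have : Nat.shiftLeft 1 c = 2 ^ c := by
      show 1 <<< c = 2 ^ c
      rw [Nat.shiftLeft_eq, one_mul]
    rw [this, Nat.testBit_two_pow]
    simp [eq_comm]
  refine Pat.leaf (copy_base o s h) (cellOf c) 0 ?_ ?_
  · rintro p ⟨k, hk, rfl⟩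
    by_cases hkc : k = c
    · left; rw [hkc]
    · right
      refine ⟨k, ?_, rfl⟩
      show (Nat.shiftLeft (baseMask o) s ^^^ (Nat.shiftLeft (baseMask o) s &&& Nat.shiftLeft 1 c)).testBit k = true
      rw [Nat.testBit_xor, Nat.testBit_and, hb, hk]
      simp [hkc]
  · rw [cellOf_mem_dec, hb]; simp

def getT : List Tp → ℕ → List Tp → List Tp
  | p :: _, 0, st => p :: st
  | _ :: e, i + 1, st => getT e i st
  | [], _, _ => []

def leafT (o s c : ℕ) (st : List Tp) : List Tp :=
  bif Nat.ble (s % 16 + maxX o) 15 then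
    ⟨1, Nat.xor (Nat.shiftLeft (baseMask o) s)
        (Nat.land (Nat.shiftLeft (baseMask o) s) (Nat.shiftLeft 1 c)), Nat.shiftLeft 1 c⟩ :: st
  else []

def nodeT (m k : ℕ) : List Tp → List Tp
  | p :: st => node m k ⟨p.n, p.U, p.Z, p.Z⟩ st
  | [] => []

/-- one token -/
def step (w : ℕ) (env st : List Tp) : List Tp :=
  bif Nat.beq (Nat.land w 3) 0 then
    leafT (Nat.land (Nat.shiftRight w 2) 7) (Nat.land (Nat.shiftRight w 5) 255)
      (Nat.land (Nat.shiftRight w 13) 255) st
  else bif Nat.beq (Nat.land w 3) 1 then getT env (Nat.shiftRight w 2) st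
  else nodeT (Nat.land (Nat.shiftRight w 2) 255) (Nat.shiftRight w 10) st

def run : ℕ → ℕ → List Tp → List Tp → List Tp
  | 0, _, _, st => st
  | f + 1, t, env, st =>
    match step (Nat.land t 16777215) env st with
    | [] => []
    | p :: st' => run f (Nat.shiftRight t 24) env (p :: st')

def chk (f t : ℕ) (env : List Tp) (n U Z : ℕ) : Bool :=
  match run f t env [] with
  | p :: _ => Nat.ble p.n n && (Nat.beq p.U U && Nat.beq p.Z Z)
  | [] => false

theorem getT_sound : ∀ (env : List Tp) (i : ℕ) (st : List Tp), (∀ p ∈ env, G p) → (∀ p ∈ st, G p) →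
    ∀ p ∈ getT env i st, G p
  | [], _, _, _, _ => by intro p hp; simp [getT] at hp
  | q :: e, 0, st, h1, h2 => by
    intro p hp
    simp only [getT, List.mem_cons] at hp
    rcases hp with hp | hp
    · rw [hp]; exact h1 q (by simp)
    · exact h2 p hp
  | q :: e, i + 1, st, h1, h2 => by
    intro p hp
    simp only [getT] at hp
    exact getT_sound e i st (fun p hp => h1 p (by simp [hp])) h2 p hp

theorem step_sound (w : ℕ) (env st : List Tp) (h1 : ∀ p ∈ env, G p) (h2 : ∀ p ∈ st, G p) :
    ∀ p ∈ step w env st, G p := by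
  intro p hp
  unfold step at hp
  cases hc1 : Nat.beq (Nat.land w 3) 0 with
  | true =>
    rw [hc1] at hp
    simp only [cond_true] at hp
    unfold leafT at hp
    cases hc2 : Nat.ble (Nat.land (Nat.shiftRight w 5) 255 % 16 +
      maxX (Nat.land (Nat.shiftRight w 2) 7)) 15 with
    | true =>
      rw [hc2] at hp
      simp only [cond_true, List.mem_cons] at hp
      rcases hp with hp | hp
      · rw [hp]; exact leaf_sound _ _ _ hc2
      · exact h2 p hp
    | false => rw [hc2] at hp; simp at hp
  | false =>
    rw [hc1] at hp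
    simp only [cond_false] at hp
    cases hc2 : Nat.beq (Nat.land w 3) 1 with
    | true =>
      rw [hc2] at hp
      simp only [cond_true] at hp
      exact getT_sound env _ st h1 h2 p hp
    | false =>
      rw [hc2] at hp
      simp only [cond_false] at hp
      cases st with
      | nil => simp [nodeT] at hp
      | cons q st =>
        simp only [nodeT] at hp
        exact node_sound _ _ _ _ (Q_first (h2 q (by simp))) (fun p hp => h2 p (by simp [hp])) p hp

theorem run_sound : ∀ (f t : ℕ) (env st : List Tp), (∀ p ∈ env, G p) → (∀ p ∈ st, G p) →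
    ∀ p ∈ run f t env st, G p
  | 0, _, _, _, _, h2 => by simpa [run] using h2
  | f + 1, t, env, st, h1, h2 => by
    intro p hp
    have hs := step_sound (Nat.land t 16777215) env st h1 h2
    rw [run] at hp
    cases hst : step (Nat.land t 16777215) env st with
    | nil => rw [hst] at hp; simp at hp
    | cons q st' =>
      rw [hst] at hp hs
      simp only at hp
      exact run_sound f _ env _ h1 hs p hp

/-- all patterns of an environment are valid -/
def AllG : List Tp → Prop
  | [] => True
  | p :: e => G p ∧ AllG e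

theorem AllG_mem : ∀ (env : List Tp), AllG env → ∀ p ∈ env, G p
  | [], _ => by intro p hp; simp at hp
  | q :: e, h => by
    intro p hp
    rw [List.mem_cons] at hp
    rcases hp with hp | hp
    · rw [hp]; exact h.1
    · exact AllG_mem e h.2 p hp

theorem aN : AllG [] := trivial

theorem aC {p : Tp} {e : List Tp} (h : G p) (t : AllG e) : AllG (p :: e) := ⟨h, t⟩

theorem ev (f t : ℕ) {env : List Tp} (henv : AllG env) {n U Z : ℕ} (h : chk f t env n U Z = true) :
    G ⟨n, U, Z⟩ := by
  unfold chk at h
  have hs := run_sound f t env [] (AllG_mem env henv) (by simp)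
  cases hr : run f t env [] with
  | nil => rw [hr] at h; simp at h
  | cons p st =>
    rw [hr] at h hs
    simp only [Bool.and_eq_true] at h
    have h1 := Nat.le_of_ble_eq_true h.1
    have h2 := Nat.eq_of_beq_eq_true h.2.1
    have h3 := Nat.eq_of_beq_eq_true h.2.2
    have hp := hs p (by simp)
    unfold G at hp ⊢
    rw [h2, h3] at hp
    exact Pat.mono h1 (subset_refl _) (subset_refl _) hp

end Crest.Agent.H2.Snaky
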