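import Mathlib
import Crest.Prelude.Def_PolyominoGame

set_option autoImplicit false

namespace Crest.Agent.H2.Snaky

open Crest.CombinatoricsR.PolyominoGame

abbrev Cell := ℤ × ℤ

/-- `W n S T`: Maker (to move, owning `S`, Breaker owning `T`) can own a copy after `n` more claims. -/
def W : ℕ → Finset Cell → Finset Cell → Prop
  | 0, S, _ => ContainsCopy (S : Set Cell)
  | n + 1, S, T => ∃ m, m ∉ S ∧ m ∉ T ∧ ∀ r, r ∉ S → r ∉ T → r ≠ m → W n (insert m S) (insert r T)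

theorem containsCopy_mono {X Y : Set Cell} (h : X ⊆ Y) (hX : ContainsCopy X) : ContainsCopy Y := by
  obtain ⟨t, e1, e2, h1, h2, h3⟩ := hX
  refine ⟨t, e1, e2, h1, h2, ?_⟩
  rcases h3 with h3 | h3
  · exact Or.inl fun p hp => h (h3 p hp)
  · exact Or.inr fun p hp => h (h3 p hp)

theorem exists_fresh (S T : Finset Cell) : ∃ m, m ∉ S ∧ m ∉ T := by
  obtain ⟨m, hm⟩ := Infinite.exists_notMem_finset (S ∪ T)
  rw [Finset.mem_union, not_or] at hm
  exact ⟨m, hm.1, hm.2⟩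

theorem W_of_copy (n : ℕ) : ∀ (S T : Finset Cell), ContainsCopy (S : Set Cell) → W n S T := by
  induction n with
  | zero => intro S T h; exact h
  | succ n ih =>
    intro S T h
    obtain ⟨m, h1, h2⟩ := exists_fresh S T
    refine ⟨m, h1, h2, fun r _ _ _ => ih _ _ (containsCopy_mono ?_ h)⟩
    rw [Finset.coe_insert]; exact Set.subset_insert _ _

theorem W_succ (n : ℕ) : ∀ (S T : Finset Cell), W n S T → W (n + 1) S T := by
  induction n with
  | zero =>
    intro S T h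
    exact W_of_copy 1 S T h
  | succ n ih =>
    rintro S T ⟨m, h1, h2, h3⟩
    exact ⟨m, h1, h2, fun r a b c => ih _ _ (h3 r a b c)⟩

theorem W_mono {n n' : ℕ} (h : n ≤ n') (S T : Finset Cell) (hW : W n S T) : W n' S T := by
  induction h with
  | refl => exact hW
  | step _ ih => exact W_succ _ S T ih

/-- Pattern: whenever Maker owns `U` and all of `Z` is free, Maker wins within `n` claims. -/
def Pat (n : ℕ) (U Z : Set Cell) : Prop :=
  ∀ S T : Finset Cell, U ⊆ (S : Set Cell) → (∀ c ∈ Z, c ∉ S) → (∀ c ∈ Z, c ∉ T) → W n S T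

theorem Pat.leaf {P : Set Cell} (hP : ContainsCopy P) (c : Cell) (n : ℕ) {U Z : Set Cell}
    (hU : ∀ p ∈ P, p = c ∨ p ∈ U) (hZ : c ∈ Z) : Pat (n + 1) U Z := by
  intro S T hUS hZS hZT
  refine ⟨c, hZS c hZ, hZT c hZ, fun r _ _ _ => W_of_copy _ _ _ (containsCopy_mono ?_ hP)⟩
  intro p hp
  rcases hU p hp with h | h
  · simp [h]
  · rw [Finset.coe_insert]; exact Set.mem_insert_of_mem _ (hUS h)

theorem Pat.node {n : ℕ} {U Z : Set Cell} (m : Cell) (hm : m ∈ Z)
    (h : ∀ r, ∃ U' Z' : Set Cell, Pat n U' Z' ∧ r ∉ Z' ∧ m ∉ Z' ∧ (∀ p ∈ U', p = m ∨ p ∈ U) ∧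
      (∀ p ∈ Z', p ∈ Z)) : Pat (n + 1) U Z := by
  intro S T hUS hZS hZT
  refine ⟨m, hZS m hm, hZT m hm, fun r hr1 hr2 hr3 => ?_⟩
  obtain ⟨U', Z', hp, h1, h2, h3, h4⟩ := h r
  refine hp _ _ ?_ ?_ ?_
  · intro p hp'
    rcases h3 p hp' with h | h
    · simp [h]
    · rw [Finset.coe_insert]; exact Set.mem_insert_of_mem _ (hUS h)
  · intro c hc hcS
    rw [Finset.mem_insert] at hcS
    rcases hcS with h | h
    · exact h2 (h ▸ hc)
    · exact hZS c (h4 c hc) h
  · intro c hc hcT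
    rw [Finset.mem_insert] at hcT
    rcases hcT with h | h
    · exact h1 (h ▸ hc)
    · exact hZT c (h4 c hc) h

theorem Pat.mono {n n' : ℕ} {U U' Z Z' : Set Cell} (hn : n ≤ n') (hU : U ⊆ U') (hZ : Z ⊆ Z')
    (h : Pat n U Z) : Pat n' U' Z' := fun S T h1 h2 h3 =>
  W_mono hn S T (h S T (hU.trans h1) (fun c hc => h2 c (hZ hc)) (fun c hc => h3 c (hZ hc)))

end Crest.Agent.H2.Snaky
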