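import Crest.Agent.H2.Snaky.Core

set_option autoImplicit false

namespace Crest.Agent.H2.Snaky

open Crest.CombinatoricsR.PolyominoGame

open Classical in
/-- Maker's chosen move. -/
noncomputable def mv : ℕ → Finset Cell → Finset Cell → Cell
  | 0, _, _ => (0, 0)
  | n + 1, S, T => if h : W (n + 1) S T then Classical.choose h else (0, 0)

theorem mv_spec {n : ℕ} {S T : Finset Cell} (h : W (n + 1) S T) :
    mv (n + 1) S T ∉ S ∧ mv (n + 1) S T ∉ T ∧
      ∀ r, r ∉ S → r ∉ T → r ≠ mv (n + 1) S T → W n (insert (mv (n + 1) S T) S) (insert r T) := by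
  have : mv (n + 1) S T = Classical.choose h := by simp [mv, h]
  rw [this]
  exact Classical.choose_spec h

noncomputable def play : ℕ → Finset Cell → Finset Cell → List Cell → Cell
  | n, S, T, [] => mv n S T
  | 0, _, _, _ :: _ => (0, 0)
  | n + 1, S, T, r :: l => play n (insert (mv (n + 1) S T) S) (insert r T) l

theorem play_nil (n : ℕ) (S T : Finset Cell) : play n S T [] = mv n S T := by
  cases n <;> rfl

theorem play_cons (n : ℕ) (S T : Finset Cell) (r : Cell) (l : List Cell) :
    play (n + 1) S T (r :: l) = play n (insert (mv (n + 1) S T) S) (insert r T) l := rfl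

theorem range_map_succ (b : ℕ → Cell) (k : ℕ) :
    (List.range (k + 1)).map b = b 0 :: (List.range k).map (fun i => b (i + 1)) := by
  rw [List.range_succ_eq_map, List.map_cons, List.map_map]
  rfl

theorem play_main (n : ℕ) : ∀ (S T : Finset Cell), W (n + 1) S T → ∀ b : ℕ → Cell,
    (∀ k, k < n → b k ∉ S ∧ b k ∉ T ∧
      (∀ j, j ≤ k → b k ≠ play (n + 1) S T ((List.range j).map b)) ∧ (∀ j, j < k → b k ≠ b j)) →
    (∀ k, k ≤ n → play (n + 1) S T ((List.range k).map b) ∉ S ∧
        play (n + 1) S T ((List.range k).map b) ∉ T ∧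
        (∀ j, j < k → play (n + 1) S T ((List.range k).map b) ≠
          play (n + 1) S T ((List.range j).map b)) ∧
        (∀ j, j < k → play (n + 1) S T ((List.range k).map b) ≠ b j)) ∧
      ContainsCopy {c | c ∈ S ∨ ∃ j, j ≤ n ∧ c = play (n + 1) S T ((List.range j).map b)} := by
  induction n with
  | zero =>
    intro S T h b _
    obtain ⟨h1, h2, h3⟩ := mv_spec h
    constructor
    · intro k hk
      have : k = 0 := by omega
      subst this
      simp only [List.range_zero, List.map_nil, play_nil]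
      exact ⟨h1, h2, fun j hj => absurd hj (Nat.not_lt_zero _), fun j hj => absurd hj (Nat.not_lt_zero _)⟩
    · obtain ⟨r, hr1, hr2⟩ := exists_fresh (insert (mv 1 S T) S) T
      rw [Finset.mem_insert, not_or] at hr1
      have hc := h3 r hr1.2 hr2 hr1.1
      refine containsCopy_mono ?_ hc
      intro c hc'
      rw [Finset.coe_insert] at hc'
      rcases hc' with hc' | hc'
      · right; exact ⟨0, le_refl _, by simpa [play_nil] using hc'⟩
      · left; exact hc'
  | succ n ih =>
    intro S T h b hb
    obtain ⟨h1, h2, h3⟩ := mv_spec h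
    set m := mv (n + 1 + 1) S T with hm
    have hb0 := hb 0 (by omega)
    have hb0m : b 0 ≠ m := by
      have := hb0.2.2.1 0 (le_refl _)
      simpa [play_nil] using this
    have hW := h3 (b 0) hb0.1 hb0.2.1 hb0m
    have key : ∀ k, play (n + 1 + 1) S T ((List.range (k + 1)).map b) =
        play (n + 1) (insert m S) (insert (b 0) T) ((List.range k).map (fun i => b (i + 1))) := by
      intro k
      rw [range_map_succ, play_cons]
    have key0 : play (n + 1 + 1) S T ((List.range 0).map b) = m := by
      simp [play_nil, hm]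
    obtain ⟨g1, g2⟩ := ih (insert m S) (insert (b 0) T) hW (fun i => b (i + 1)) (by
      intro k hk
      have hbk := hb (k + 1) (by omega)
      refine ⟨?_, ?_, ?_, ?_⟩
      · rw [Finset.mem_insert, not_or]
        refine ⟨?_, hbk.1⟩
        have := hbk.2.2.1 0 (Nat.zero_le _)
        rwa [key0] at this
      · rw [Finset.mem_insert, not_or]
        exact ⟨hbk.2.2.2 0 (Nat.succ_pos _), hbk.2.1⟩
      · intro j hj
        have := hbk.2.2.1 (j + 1) (by omega)
        rwa [key] at this
      · intro j hj
        exact hbk.2.2.2 (j + 1) (by omega))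
    constructor
    · intro k hk
      rcases Nat.eq_zero_or_pos k with rfl | hkpos
      · rw [key0]
        exact ⟨h1, h2, fun j hj => absurd hj (Nat.not_lt_zero _), fun j hj => absurd hj (Nat.not_lt_zero _)⟩
      · obtain ⟨k', rfl⟩ : ∃ k', k = k' + 1 := ⟨k - 1, by omega⟩
        obtain ⟨a1, a2, a3, a4⟩ := g1 k' (by omega)
        rw [Finset.mem_insert, not_or] at a1 a2
        rw [key]
        refine ⟨a1.2, a2.2, ?_, ?_⟩
        · intro j hj
          rcases Nat.eq_zero_or_pos j with rfl | hjpos
          · rw [key0]; exact a1.1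
          · obtain ⟨j', rfl⟩ : ∃ j', j = j' + 1 := ⟨j - 1, by omega⟩
            rw [key]
            exact a3 j' (by omega)
        · intro j hj
          rcases Nat.eq_zero_or_pos j with rfl | hjpos
          · exact a2.1
          · obtain ⟨j', rfl⟩ : ∃ j', j = j' + 1 := ⟨j - 1, by omega⟩
            exact a4 j' (by omega)
    · refine containsCopy_mono ?_ g2
      intro c hc
      rcases hc with hc | ⟨j, hj, hc⟩
      · rw [Finset.mem_insert] at hc
        rcases hc with hc | hc
        · right; exact ⟨0, Nat.zero_le _, by rw [key0]; exact hc⟩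
        · left; exact hc
      · right; exact ⟨j + 1, by omega, by rw [key]; exact hc⟩

theorem statement_of_W (h : W 21 ∅ ∅) :
    ∃ σ : List (ℤ × ℤ) → ℤ × ℤ, ∀ b : ℕ → ℤ × ℤ,
      (∀ k : ℕ, k < 20 →
        (∀ j : ℕ, j ≤ k → b k ≠ Crest.CombinatoricsR.PolyominoGame.makerClaim σ b j) ∧
        (∀ j : ℕ, j < k → b k ≠ b j)) →
      (∀ k : ℕ, k ≤ 20 →
        (∀ j : ℕ, j < k → Crest.CombinatoricsR.PolyominoGame.makerClaim σ b k ≠
          Crest.CombinatoricsR.PolyominoGame.makerClaim σ b j) ∧
        (∀ j : ℕ, j < k → Crest.CombinatoricsR.PolyominoGame.makerClaim σ b k ≠ b j)) ∧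
      Crest.CombinatoricsR.PolyominoGame.ContainsCopy
        {c | ∃ j : ℕ, j ≤ 20 ∧ c = Crest.CombinatoricsR.PolyominoGame.makerClaim σ b j} := by
  refine ⟨play 21 ∅ ∅, fun b hb => ?_⟩
  obtain ⟨g1, g2⟩ := play_main 20 ∅ ∅ h b (by
    intro k hk
    exact ⟨Finset.notMem_empty _, Finset.notMem_empty _, (hb k hk).1, (hb k hk).2⟩)
  refine ⟨fun k hk => ⟨(g1 k hk).2.2.1, (g1 k hk).2.2.2⟩, containsCopy_mono ?_ g2⟩
  intro c hc
  rcases hc with hc | hc
  · exact absurd hc (Finset.notMem_empty _)
  · exact hc

end Crest.Agent.H2.Snaky
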