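import Crest.Agent.H2.Snaky.Check

set_option autoImplicit false

namespace Crest.Agent.H2.Snaky

open Crest.CombinatoricsR.PolyominoGame

/-- the map `p ↦ t + R p`, `R` a signed coordinate permutation -/
def act (sw : Bool) (e1 e2 : ℤ) (t : Cell) (p : Cell) : Cell :=
  bif sw then (t.1 + e1 * p.2, t.2 + e2 * p.1) else (t.1 + e1 * p.1, t.2 + e2 * p.2)

theorem sq_one {e : ℤ} (h : e = 1 ∨ e = -1) : e * e = 1 := by
  rcases h with rfl | rfl <;> norm_num

theorem act_copy (sw : Bool) {e1 e2 : ℤ} (h1 : e1 = 1 ∨ e1 = -1) (h2 : e2 = 1 ∨ e2 = -1) (t : Cell)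
    {X : Set Cell} (hX : ContainsCopy X) : ContainsCopy (act sw e1 e2 t '' X) := by
  obtain ⟨s, f1, f2, g1, g2, h⟩ := hX
  have hm : ∀ {a b : ℤ}, (a = 1 ∨ a = -1) → (b = 1 ∨ b = -1) → (a * b = 1 ∨ a * b = -1) := by
    rintro a b (rfl | rfl) (rfl | rfl) <;> norm_num
  cases sw with
  | false =>
    refine ⟨act false e1 e2 t s, e1 * f1, e2 * f2, hm h1 g1, hm h2 g2, ?_⟩
    rcases h with h | h
    · left
      intro p hp
      refine ⟨_, h p hp, ?_⟩
      simp only [act, cond_false, Prod.mk.injEq]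
      constructor <;> ring
    · right
      intro p hp
      refine ⟨_, h p hp, ?_⟩
      simp only [act, cond_false, Prod.mk.injEq]
      constructor <;> ring
  | true =>
    refine ⟨act true e1 e2 t s, e1 * f2, e2 * f1, hm h1 g2, hm h2 g1, ?_⟩
    rcases h with h | h
    · right
      intro p hp
      refine ⟨_, h p hp, ?_⟩
      simp only [act, cond_true, Prod.mk.injEq]
      constructor <;> ring
    · left
      intro p hp
      refine ⟨_, h p hp, ?_⟩
      simp only [act, cond_true, Prod.mk.injEq]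
      constructor <;> ring

theorem W_map (g : Cell ≃ Cell) (hg : ∀ X : Set Cell, ContainsCopy X → ContainsCopy (g '' X)) (n : ℕ) :
    ∀ S T : Finset Cell, W n S T → W n (S.map g.toEmbedding) (T.map g.toEmbedding) := by
  induction n with
  | zero =>
    intro S T h
    have := hg _ h
    simpa [W] using this
  | succ n ih =>
    rintro S T ⟨m, h1, h2, h3⟩
    refine ⟨g m, by simpa using h1, by simpa using h2, fun r hr1 hr2 hr3 => ?_⟩
    have e1 : g (g.symm r) = r := g.apply_symm_apply r
    have := ih _ _ (h3 (g.symm r) (fun h => hr1 (by rw [← e1]; simpa using h))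
      (fun h => hr2 (by rw [← e1]; simpa using h)) (fun h => hr3 (by rw [← h, e1])))
    rw [Finset.map_insert, Finset.map_insert] at this
    simpa [e1] using this

theorem Pat_map (g : Cell ≃ Cell) (hg : ∀ X : Set Cell, ContainsCopy X → ContainsCopy (g '' X)) {n : ℕ}
    {U Z : Set Cell} (h : Pat n U Z) : Pat n (g '' U) (g '' Z) := by
  intro S T hU hS hT
  have := h (S.map g.symm.toEmbedding) (T.map g.symm.toEmbedding) ?_ ?_ ?_
  · have h' := W_map g hg n _ _ this
    have e : ∀ S : Finset Cell, (S.map g.symm.toEmbedding).map g.toEmbedding = S := by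
      intro S
      rw [Finset.map_map]
      convert Finset.map_refl
      ext x <;> simp
    rwa [e, e] at h'
  · intro c hc
    have := hU ⟨c, hc, rfl⟩
    simp only [Finset.coe_map, Set.mem_image, Finset.mem_coe]
    exact ⟨g c, this, by simp⟩
  · intro c hc hcS
    rw [Finset.mem_map] at hcS
    obtain ⟨d, hd, hdc⟩ := hcS
    refine hS (g c) ⟨c, hc, rfl⟩ ?_
    rw [← hdc]; simpa using hd
  · intro c hc hcS
    rw [Finset.mem_map] at hcS
    obtain ⟨d, hd, hdc⟩ := hcS
    refine hT (g c) ⟨c, hc, rfl⟩ ?_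
    rw [← hdc]; simpa using hd

/-- the linear part inverse: `R' r` -/
def lin (sw : Bool) (e1 e2 : ℤ) (p : Cell) : Cell := act sw e1 e2 (0, 0) p

/-- equivalence `p ↦ R⁻¹ (p - a)` expressed through `R' = act sw e1 e2 a` -/
def actEquiv (sw : Bool) (e1 e2 : ℤ) (h1 : e1 = 1 ∨ e1 = -1) (h2 : e2 = 1 ∨ e2 = -1) (t : Cell) :
    Cell ≃ Cell where
  toFun := act sw e1 e2 t
  invFun p := bif sw then (e2 * (p.2 - t.2), e1 * (p.1 - t.1)) else (e1 * (p.1 - t.1), e2 * (p.2 - t.2))
  left_inv p := by
    have a1 := sq_one h1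
    have a2 := sq_one h2
    cases sw
    · simp only [act, cond_false]
      ext
      · show e1 * (t.1 + e1 * p.1 - t.1) = p.1
        linear_combination p.1 * a1
      · show e2 * (t.2 + e2 * p.2 - t.2) = p.2
        linear_combination p.2 * a2
    · simp only [act, cond_true]
      ext
      · show e2 * (t.2 + e2 * p.1 - t.2) = p.1
        linear_combination p.1 * a2
      · show e1 * (t.1 + e1 * p.2 - t.1) = p.2
        linear_combination p.2 * a1
  right_inv p := by
    have a1 := sq_one h1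
    have a2 := sq_one h2
    cases sw
    · simp only [act, cond_false]
      ext
      · show t.1 + e1 * (e1 * (p.1 - t.1)) = p.1
        linear_combination (p.1 - t.1) * a1
      · show t.2 + e2 * (e2 * (p.2 - t.2)) = p.2
        linear_combination (p.2 - t.2) * a2
    · simp only [act, cond_true]
      ext
      · show t.1 + e1 * (e1 * (p.1 - t.1)) = p.1
        linear_combination (p.1 - t.1) * a1
      · show t.2 + e2 * (e2 * (p.2 - t.2)) = p.2
        linear_combination (p.2 - t.2) * a2

theorem act_symm_copy (sw : Bool) (e1 e2 : ℤ) (h1 : e1 = 1 ∨ e1 = -1) (h2 : e2 = 1 ∨ e2 = -1) (t : Cell)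
    (X : Set Cell) (hX : ContainsCopy X) : ContainsCopy ((actEquiv sw e1 e2 h1 h2 t).symm '' X) := by
  have : ((actEquiv sw e1 e2 h1 h2 t).symm '' X) =
      act sw (bif sw then e2 else e1) (bif sw then e1 else e2)
        (bif sw then (-(e2 * t.2), -(e1 * t.1)) else (-(e1 * t.1), -(e2 * t.2))) '' X := by
    apply Set.image_congr
    intro p _
    cases sw
    · simp only [actEquiv, Equiv.symm, Equiv.coe_fn_mk, cond_false, act]
      ext <;> simp <;> ring
    · simp only [actEquiv, Equiv.symm, Equiv.coe_fn_mk, cond_true, act]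
      ext <;> simp <;> ring
  rw [this]
  cases sw
  · exact act_copy _ h1 h2 _ hX
  · exact act_copy _ h2 h1 _ hX

/-- A root pattern `p` with needed cell `a` only: used for a first reply `r` with
`act sw e1 e2 a r` outside the zone. -/
theorem W_of_root {n : ℕ} {Z a : ℕ} (hG : G ⟨n, Nat.shiftLeft 1 a, Z⟩) (sw : Bool) (e1 e2 : ℤ)
    (h1 : e1 = 1 ∨ e1 = -1) (h2 : e2 = 1 ∨ e2 = -1) (ha : (dec Z) (cellOf a) → False) (r : Cell)
    (hr : act sw e1 e2 (cellOf a) r ∉ dec Z) : W n {((0 : ℤ), (0 : ℤ))} {r} := by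
  have h := Pat_map (actEquiv sw e1 e2 h1 h2 (cellOf a)).symm (act_symm_copy sw e1 e2 h1 h2 _) hG
  refine h _ _ ?_ ?_ ?_
  · rintro c ⟨d, hd, rfl⟩
    obtain ⟨k, hk, rfl⟩ := hd
    have : Nat.shiftLeft 1 a = 2 ^ a := by
      show 1 <<< a = 2 ^ a
      rw [Nat.shiftLeft_eq, one_mul]
    rw [this, Nat.testBit_two_pow] at hk
    have hka : a = k := by simpa using hk
    subst hka
    cases sw <;> simp [actEquiv, Equiv.symm]
  · rintro c ⟨d, hd, rfl⟩ hc
    rw [Finset.mem_singleton] at hc
    have : d = cellOf a := by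
      have := congrArg (actEquiv sw e1 e2 h1 h2 (cellOf a)) hc
      rw [Equiv.apply_symm_apply] at this
      rw [this]
      cases sw <;> simp [actEquiv, act]
    exact ha (this ▸ hd)
  · rintro c ⟨d, hd, rfl⟩ hc
    rw [Finset.mem_singleton] at hc
    apply hr
    have := congrArg (actEquiv sw e1 e2 h1 h2 (cellOf a)) hc
    rw [Equiv.apply_symm_apply] at this
    rw [this] at hd
    exact hd

end Crest.Agent.H2.Snaky
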