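import Crest.Agent.H2.Snaky.Adj8
import Crest.Agent.H2.Snaky.CB1
import Crest.Agent.H2.Snaky.CC1
import Crest.Agent.H2.Snaky.CD1
import Crest.Agent.H2.Snaky.CE1
import Crest.Agent.H2.Snaky.CF1
import Crest.Agent.H2.Snaky.CG1
import Crest.Agent.H2.Snaky.CH1
import Crest.Agent.H2.Snaky.Sym
import Crest.Agent.H2.Snaky.Strategy

set_option autoImplicit false
set_option maxRecDepth 100000

namespace Crest.Agent.H2.Snaky

open Crest.CombinatoricsR.PolyominoGame

/-- `true` only if the cell `(x, y)` is not in `dec Z` -/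
def notIn (Z : ℕ) (x y : ℤ) : Bool :=
  match x, y with
  | Int.ofNat a, Int.ofNat b => !(Nat.blt a 16) || !(Nat.testBit Z (a + 16 * b))
  | _, _ => true

theorem notIn_sound {Z : ℕ} {p : Cell} (h : notIn Z p.1 p.2 = true) : p ∉ dec Z := by
  rintro ⟨k, hk, rfl⟩
  have h1 : (cellOf k).1 = Int.ofNat (k % 16) := rfl
  have h2 : (cellOf k).2 = Int.ofNat (k / 16) := rfl
  rw [h1, h2] at h
  simp only [notIn] at h
  have h3 : k % 16 + 16 * (k / 16) = k := by omega
  rw [h3, hk] at h
  have h4 : Nat.blt (k % 16) 16 = true := by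
    rw [Nat.blt_eq]; omega
  rw [h4] at h
  simp at h

/-- the root patterns `(n, a, Z)` -/
def pats : List (ℕ × ℕ × ℕ) :=
  [(14, 102, 0x40006003f007fc0ffe0fbe0ffe0ffe0ffe03fc03e000a0),
   (15, 102, 0xe000f000f807fe0ffe07be0ffe07fe0ffc03fc00f000e0),
   (15, 102, 0x1e001f803fc02fc07ff0fbf07ff07ff03fc01fc00f80000),
   (19, 102, 0xa000e003fe077e07ff0fff0fbf0fff0fff07ff0fff03ff00bc),
   (20, 102, 0xa007bc0fbf0fbf1ffe1fbf1fff1fff1fff07ff0ffc03f8),
   (19, 102, 0x2f803f803fe077e0ffe1fbf1ffe1fff1ffe07fc0ff807e0),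
   (20, 102, 0x77c07fc1ffe0fff0fff077f07bf0fff07ff07ff0ffe03fe01f4),
   (20, 135, 0x1ff83ffc3fff7fff7fff7f7f7f7f7fff7fff7fff7fff7fff7ffe7fff3ffe)]

theorem pats_G : ∀ p ∈ pats, G ⟨p.1, Nat.shiftLeft 1 p.2.1, p.2.2⟩ ∧ p.1 ≤ 20 ∧
    p.2.2.testBit p.2.1 = false := by
  intro p hp
  simp only [pats, List.mem_cons, List.not_mem_nil, or_false] at hp
  rcases hp with rfl | rfl | rfl | rfl | rfl | rfl | rfl | rfl
  · exact ⟨by
      have h : Nat.shiftLeft 1 102 = 0x40000000000000000000000000 := by decide +kernel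
      show G ⟨_, Nat.shiftLeft 1 102, _⟩
      rw [h]; exact xhroot, by decide +kernel, by decide +kernel⟩
  · exact ⟨by
      have h : Nat.shiftLeft 1 102 = 0x40000000000000000000000000 := by decide +kernel
      show G ⟨_, Nat.shiftLeft 1 102, _⟩
      rw [h]; exact xgroot, by decide +kernel, by decide +kernel⟩
  · exact ⟨by
      have h : Nat.shiftLeft 1 102 = 0x40000000000000000000000000 := by decide +kernel
      show G ⟨_, Nat.shiftLeft 1 102, _⟩
      rw [h]; exact xeroot, by decide +kernel, by decide +kernel⟩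
  · exact ⟨by
      have h : Nat.shiftLeft 1 102 = 0x40000000000000000000000000 := by decide +kernel
      show G ⟨_, Nat.shiftLeft 1 102, _⟩
      rw [h]; exact xfroot, by decide +kernel, by decide +kernel⟩
  · exact ⟨by
      have h : Nat.shiftLeft 1 102 = 0x40000000000000000000000000 := by decide +kernel
      show G ⟨_, Nat.shiftLeft 1 102, _⟩
      rw [h]; exact xcroot, by decide +kernel, by decide +kernel⟩
  · exact ⟨by
      have h : Nat.shiftLeft 1 102 = 0x40000000000000000000000000 := by decide +kernel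
      show G ⟨_, Nat.shiftLeft 1 102, _⟩
      rw [h]; exact xdroot, by decide +kernel, by decide +kernel⟩
  · exact ⟨by
      have h : Nat.shiftLeft 1 102 = 0x40000000000000000000000000 := by decide +kernel
      show G ⟨_, Nat.shiftLeft 1 102, _⟩
      rw [h]; exact xbroot, by decide +kernel, by decide +kernel⟩
  · exact ⟨by
      have h : Nat.shiftLeft 1 135 = 0x8000000000000000000000000000000000 := by decide +kernel
      show G ⟨_, Nat.shiftLeft 1 135, _⟩
      rw [h]; exact xaroot, by decide +kernel, by decide +kernel⟩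

/-- the eight symmetries -/
def gs : List (Bool × ℤ × ℤ) :=
  [(false, 1, 1), (false, 1, -1), (false, -1, 1), (false, -1, -1),
   (true, 1, 1), (true, 1, -1), (true, -1, 1), (true, -1, -1)]

def cov1 (Z a : ℕ) (x y : ℤ) (g : Bool × ℤ × ℤ) : Bool :=
  notIn Z (act g.1 g.2.1 g.2.2 (cellOf a) (x, y)).1 (act g.1 g.2.1 g.2.2 (cellOf a) (x, y)).2

def cov (x y : ℤ) : Bool := pats.any fun p => gs.any fun g => cov1 p.2.2 p.2.1 x y g

theorem gs_ok : ∀ g ∈ gs, (g.2.1 = 1 ∨ g.2.1 = -1) ∧ (g.2.2 = 1 ∨ g.2.2 = -1) := by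
  decide

theorem cov_sound {x y : ℤ} (h : cov x y = true) : W 20 {((0 : ℤ), (0 : ℤ))} {(x, y)} := by
  unfold cov at h
  rw [List.any_eq_true] at h
  obtain ⟨p, hp, h⟩ := h
  rw [List.any_eq_true] at h
  obtain ⟨g, hg, h⟩ := h
  obtain ⟨h1, h2, h3⟩ := pats_G p hp
  obtain ⟨g1, g2⟩ := gs_ok g hg
  refine W_mono h2 _ _ (W_of_root h1 g.1 g.2.1 g.2.2 g1 g2 ?_ (x, y) (notIn_sound h))
  intro hc
  have := (cellOf_mem_dec (k := p.2.1) (x := p.2.2)).1 hc
  rw [h3] at this; cases this

def offs : List ℤ := (List.range 31).map fun (i : ℕ) => (i : ℤ) - 15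

theorem mem_offs {x : ℤ} (h1 : -15 ≤ x) (h2 : x ≤ 15) : x ∈ offs := by
  unfold offs
  rw [List.mem_map]
  refine ⟨(x + 15).toNat, ?_, ?_⟩
  · rw [List.mem_range]; omega
  · omega

def allCov : Bool := offs.all fun x => offs.all fun y => (decide (x = 0) && decide (y = 0)) || cov x y

theorem allCov_true : allCov = true := by decide +kernel

theorem far {Z : ℕ} (v : ℤ) (hv : v < 0 ∨ 16 ≤ v) (w : ℤ) : notIn Z v w = true := by
  rcases v with v | v
  · rcases w with w | w
    · simp only [notIn]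
      have : Nat.blt v 16 = false := by
        rcases hv with hv | hv
        · exact absurd hv (by simp)
        · have : 16 ≤ v := by simpa using hv
          rw [← Bool.not_eq_true, Nat.blt_eq]; omega
      rw [this]; rfl
    · rfl
  · rfl

theorem W_first (r : Cell) (hr : r ≠ (0, 0)) : W 20 {((0 : ℤ), (0 : ℤ))} {r} := by
  obtain ⟨x, y⟩ := r
  apply cov_sound
  by_cases hx : -15 ≤ x ∧ x ≤ 15
  · by_cases hy : -15 ≤ y ∧ y ≤ 15
    · have h := allCov_true
      unfold allCov at h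
      rw [List.all_eq_true] at h
      have h := h x (mem_offs hx.1 hx.2)
      rw [List.all_eq_true] at h
      have h := h y (mem_offs hy.1 hy.2)
      rw [Bool.or_eq_true, Bool.and_eq_true, decide_eq_true_eq, decide_eq_true_eq] at h
      rcases h with ⟨rfl, rfl⟩ | h
      · exact absurd rfl hr
      · exact h
    · unfold cov
      rw [List.any_eq_true]
      refine ⟨pats.head (by simp [pats]), List.head_mem _, ?_⟩
      rw [List.any_eq_true]
      refine ⟨(true, 1, 1), by decide, ?_⟩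
      refine far _ ?_ _
      show ((6 : ℕ) : ℤ) + 1 * y < 0 ∨ 16 ≤ ((6 : ℕ) : ℤ) + 1 * y
      push_cast
      omega
  · unfold cov
    rw [List.any_eq_true]
    refine ⟨pats.head (by simp [pats]), List.head_mem _, ?_⟩
    rw [List.any_eq_true]
    refine ⟨(false, 1, 1), by decide, ?_⟩
    refine far _ ?_ _
    show ((6 : ℕ) : ℤ) + 1 * x < 0 ∨ 16 ≤ ((6 : ℕ) : ℤ) + 1 * x
    push_cast
    omega

theorem W_start : W 21 ∅ ∅ := by
  refine ⟨(0, 0), by simp, by simp, fun r _ _ hr => ?_⟩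
  have := W_first r hr
  simpa using this

end Crest.Agent.H2.Snaky
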